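import Vale.Agent.P199.Quad

namespace Vale.Agent.Results.P199.TwoQuadratic

/-- Kurosh's problem for two generators of degree at most two.
Let `D` be a division ring which is algebraic over a central subfield `F` (for instance its centre).
If `a` and `b` each satisfy a monic quadratic equation over `F`, then the `F`-subalgebra generated
by `a` and `b` is finite-dimensional over `F`.  No bound on the degrees of the elements of `D` and
no restriction on the characteristic is assumed. -/
theorem result {F D : Type*} [Field F] [DivisionRing D] [Algebra F D] [Algebra.IsAlgebraic F D]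
    (a b : D) (ha : ∃ α1 α0 : F, a * a = α1 • a + α0 • 1)
    (hb : ∃ β1 β0 : F, b * b = β1 • b + β0 • 1) :
    FiniteDimensional F (Algebra.adjoin F {a, b}) := by
  obtain ⟨α1, α0, ha⟩ := ha
  obtain ⟨β1, β0, hb⟩ := hb
  exact Vale.Agent.P199.finite_adjoin (Algebra.IsIntegral.isIntegral _) ha hb

end Vale.Agent.Results.P199.TwoQuadratic
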